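import Vale.Agent.P107.Main

namespace Vale.Agent.Results.P107.Global

open Vale.Agent.P107

theorem result : ∀ (f₀ : V → V → ℝ) (E₀ B₀ : V → V), Datum f₀ E₀ B₀ →
    ∃ (f : ℝ → V → V → ℝ) (E B : ℝ → V → V), IsSol f₀ E₀ B₀ f E B :=
  fun f₀ E₀ B₀ h => main f₀ E₀ B₀ h

end Vale.Agent.Results.P107.Global
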